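import Mathlib

/-! P199: algebras generated by quadratic elements. -/

namespace Vale.Agent.P199

open Submodule

variable {F A : Type*} [Field F] [Ring A] [Algebra F A]

/-- a submodule containing `1` and stable under right multiplication by the generators contains
the generated subalgebra -/
theorem adjoin_le_of_stable (W : Submodule F A) (S : Set A) (h1 : (1 : A) ∈ W)
    (hS : ∀ s ∈ S, ∀ w ∈ W, w * s ∈ W) : Subalgebra.toSubmodule (Algebra.adjoin F S) ≤ W := by
  intro x hx
  have key : ∀ x ∈ Algebra.adjoin F S, ∀ w ∈ W, w * x ∈ W := by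
    intro x hx
    refine Algebra.adjoin_induction (p := fun x _ => ∀ w ∈ W, w * x ∈ W) ?_ ?_ ?_ ?_ hx
    · intro s hs w hw; exact hS s hs w hw
    · intro r w hw
      rw [← Algebra.commutes, ← Algebra.smul_def]
      exact W.smul_mem r hw
    · intro x y _ _ hx hy w hw
      rw [mul_add]; exact W.add_mem (hx w hw) (hy w hw)
    · intro x y _ _ hx hy w hw
      rw [← mul_assoc]; exact hy _ (hx w hw)
  have := key x hx 1 h1
  rwa [one_mul] at this

/-- two quadratic elements of an algebraic algebra generate a finite-dimensional algebra -/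
theorem two_quadratic (a b : A) (α β γ δ : F) (ha : a * a = α • a + β • (1 : A))
    (hb : b * b = γ • b + δ • (1 : A)) (hz : IsIntegral F (a * b + b * a - γ • a - α • b)) :
    (Subalgebra.toSubmodule (Algebra.adjoin F {a, b})).FG := by
  set z : A := a * b + b * a - γ • a - α • b with hzd
  have hba : b * a = z - a * b + γ • a + α • b := by rw [hzd]; abel
  have hza : z * a = a * z := by
    have e1 : z * a - a * z = b * (a * a) - (a * a) * b + α • (a * b) - α • (b * a) := by
      rw [hzd]
      simp only [sub_mul, add_mul, mul_sub, mul_add, smul_mul_assoc, mul_smul_comm, mul_assoc]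
      abel
    rw [ha] at e1
    simp only [mul_add, add_mul, smul_mul_assoc, mul_smul_comm, mul_one, one_mul] at e1
    have : z * a - a * z = 0 := by rw [e1]; abel
    exact sub_eq_zero.1 this
  set Z : Submodule F A := Subalgebra.toSubmodule (Algebra.adjoin F {z}) with hZ
  set M : Submodule F A := span F {1, a, b, a * b} with hM
  have hZfg : Z.FG := hz.fg_adjoin_singleton
  have hMfg : M.FG := Submodule.fg_span (Set.toFinite _)
  have hWfg : (Z * M).FG := hZfg.mul hMfg
  have zZ : z ∈ Z := Algebra.subset_adjoin (Set.mem_singleton z)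
  have oZ : (1 : A) ∈ Z := one_mem (Algebra.adjoin F {z})
  have hmul : ∀ ζ ∈ Z, ∀ w ∈ Z * M, ζ * w ∈ Z * M := by
    intro ζ hζ w hw
    refine Submodule.mul_induction_on hw ?_ ?_
    · intro m hm n hn
      rw [← mul_assoc]
      exact Submodule.mul_mem_mul (mul_mem (S := Subalgebra F A) (s := Algebra.adjoin F {z}) hζ hm) hn
    · intro x y hx hy
      rw [mul_add]; exact add_mem hx hy
  have m1 : (1 : A) ∈ M := subset_span (by simp)
  have ma : a ∈ M := subset_span (by simp)
  have mb : b ∈ M := subset_span (by simp)
  have mab : a * b ∈ M := subset_span (by simp)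
  have hM' : ∀ m ∈ M, m ∈ Z * M := fun m hm => by
    have := Submodule.mul_mem_mul oZ hm
    rwa [one_mul] at this
  have w1 := hM' _ m1
  have wa := hM' _ ma
  have wb := hM' _ mb
  have wab := hM' _ mab
  have wz : z ∈ Z * M := by
    have := Submodule.mul_mem_mul zZ m1
    rwa [mul_one] at this
  have wza : z * a ∈ Z * M := Submodule.mul_mem_mul zZ ma
  -- right multiplication of the basis elements
  have ra : ∀ m ∈ M, m * a ∈ Z * M := by
    intro m hm
    refine span_induction (p := fun m _ => m * a ∈ Z * M) ?_ ?_ ?_ ?_ hm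
    · intro x hx
      simp only [Set.mem_insert_iff, Set.mem_singleton_iff] at hx
      rcases hx with rfl | rfl | rfl | rfl
      · rw [one_mul]; exact wa
      · rw [ha]; exact add_mem (smul_mem _ _ wa) (smul_mem _ _ w1)
      · rw [hba]; exact add_mem (add_mem (sub_mem wz wab) (smul_mem _ _ wa)) (smul_mem _ _ wb)
      · have e : a * b * a = z * a - β • b + (γ * α) • a + (γ * β) • (1 : A) := by
          rw [mul_assoc, hba, mul_add, mul_add, mul_sub, ← hza, ← mul_assoc, ha, mul_smul_comm,
            mul_smul_comm, ha]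
          simp only [add_mul, smul_mul_assoc, one_mul, smul_add, smul_smul]
          abel
        rw [e]
        exact add_mem (add_mem (sub_mem wza (smul_mem _ _ wb)) (smul_mem _ _ wa)) (smul_mem _ _ w1)
    · rw [zero_mul]; exact zero_mem _
    · intro x y _ _ hx hy; rw [add_mul]; exact add_mem hx hy
    · intro r x _ hx; rw [smul_mul_assoc]; exact smul_mem _ _ hx
  have rb : ∀ m ∈ M, m * b ∈ Z * M := by
    intro m hm
    refine span_induction (p := fun m _ => m * b ∈ Z * M) ?_ ?_ ?_ ?_ hm
    · intro x hx
      simp only [Set.mem_insert_iff, Set.mem_singleton_iff] at hx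
      rcases hx with rfl | rfl | rfl | rfl
      · rw [one_mul]; exact wb
      · exact wab
      · rw [hb]; exact add_mem (smul_mem _ _ wb) (smul_mem _ _ w1)
      · rw [mul_assoc, hb, mul_add, mul_smul_comm, mul_smul_comm, mul_one]
        exact add_mem (smul_mem _ _ wab) (smul_mem _ _ wa)
    · rw [zero_mul]; exact zero_mem _
    · intro x y _ _ hx hy; rw [add_mul]; exact add_mem hx hy
    · intro r x _ hx; rw [smul_mul_assoc]; exact smul_mem _ _ hx
  have hle : Subalgebra.toSubmodule (Algebra.adjoin F {a, b}) ≤ Z * M := by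
    refine adjoin_le_of_stable (Z * M) {a, b} w1 ?_
    intro s hs w hw
    refine Submodule.mul_induction_on hw ?_ ?_
    · intro m hm n hn
      rw [mul_assoc]
      refine hmul m hm _ ?_
      simp only [Set.mem_insert_iff, Set.mem_singleton_iff] at hs
      rcases hs with rfl | rfl
      · exact ra n hn
      · exact rb n hn
    · intro x y hx hy
      rw [add_mul]; exact add_mem hx hy
  exact Submodule.FG.of_le hWfg hle

/-- adding one quadratic element that anticommutes with the others up to lower terms -/
theorem step (S : Set A) (s : A) (α β : F) (hs : s * s = α • s + β • (1 : A))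
    (hst : ∀ t ∈ S, s * t + t * s ∈ span F {1, s, t})
    (hfin : (Subalgebra.toSubmodule (Algebra.adjoin F S)).FG) :
    (Subalgebra.toSubmodule (Algebra.adjoin F (insert s S))).FG ∧
    Module.finrank F (Algebra.adjoin F (insert s S)) ≤ 2 * Module.finrank F (Algebra.adjoin F S) := by
  set B : Submodule F A := Subalgebra.toSubmodule (Algebra.adjoin F S) with hB
  set Bs : Submodule F A := B.map (LinearMap.mulRight F s) with hBs
  have hBsfg : Bs.FG := hfin.map _
  have memBs : ∀ x ∈ B, x * s ∈ Bs := fun x hx => ⟨x, hx, by simp⟩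
  have oB : (1 : A) ∈ B := one_mem (Algebra.adjoin F S)
  have hBmul : ∀ x ∈ B, ∀ y ∈ B, x * y ∈ B := fun x hx y hy =>
    mul_mem (S := Subalgebra F A) (s := Algebra.adjoin F S) hx hy
  set W : Submodule F A := B ⊔ Bs with hW
  have bW : ∀ x ∈ B, x ∈ W := fun x hx => mem_sup_left hx
  have sW : ∀ x ∈ B, x * s ∈ W := fun x hx => mem_sup_right (memBs x hx)
  have hle : Subalgebra.toSubmodule (Algebra.adjoin F (insert s S)) ≤ W := by
    refine adjoin_le_of_stable W (insert s S) (bW 1 oB) ?_
    intro t ht w hw
    obtain ⟨x, hx, y', hy', rfl⟩ := mem_sup.1 hw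
    obtain ⟨y, hy, rfl⟩ := hy'
    simp only [LinearMap.mulRight_apply, add_mul]
    rcases ht with rfl | ht
    · refine add_mem (sW x hx) ?_
      rw [mul_assoc, hs, mul_add, mul_smul_comm, mul_smul_comm, mul_one]
      exact add_mem (smul_mem _ _ (sW y hy)) (smul_mem _ _ (bW y hy))
    · have htB : t ∈ B := Algebra.subset_adjoin ht
      refine add_mem (bW _ (hBmul x hx t htB)) ?_
      obtain ⟨c1, c2, h12⟩ := mem_span_insert.1 (hst t ht)
      obtain ⟨h2, h3⟩ := h12
      obtain ⟨c3, c4, h34⟩ := mem_span_insert.1 h2
      obtain ⟨h4, h5⟩ := h34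
      obtain ⟨c5, h6⟩ := mem_span_singleton.1 h4
      have e : s * t = c1 • (1 : A) + c3 • s + c5 • t - t * s := by
        rw [eq_sub_iff_add_eq, h3, h5, h6]; abel
      rw [mul_assoc, e, mul_sub, mul_add, mul_add, mul_smul_comm, mul_smul_comm, mul_smul_comm,
        mul_one, ← mul_assoc]
      exact sub_mem (add_mem (add_mem (smul_mem _ _ (bW y hy)) (smul_mem _ _ (sW y hy)))
        (smul_mem _ _ (bW _ (hBmul y hy t htB)))) (sW _ (hBmul y hy t htB))
  have hWfg : W.FG := hfin.sup hBsfg
  refine ⟨Submodule.FG.of_le hWfg hle, ?_⟩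
  have : Module.Finite F B := Module.Finite.iff_fg.2 hfin
  have : Module.Finite F Bs := Module.Finite.iff_fg.2 hBsfg
  have : Module.Finite F W := Module.Finite.iff_fg.2 hWfg
  have h1 : Module.finrank F (Algebra.adjoin F (insert s S)) ≤ Module.finrank F W :=
    Submodule.finrank_mono (s := Subalgebra.toSubmodule (Algebra.adjoin F (insert s S))) (t := W) hle
  have h2 : Module.finrank F W ≤ Module.finrank F B + Module.finrank F Bs := by
    have := Submodule.finrank_add_le_finrank_add_finrank B Bs
    exact this
  have h3 : Module.finrank F Bs ≤ Module.finrank F B := Submodule.finrank_map_le _ _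
  have h4 : Module.finrank F B = Module.finrank F (Algebra.adjoin F S) := rfl
  omega

/-- finite sets of quadratic elements with quadratic pair sums -/
theorem finite_set (S : Finset A)
    (hq : ∀ s ∈ S, ∃ α β : F, s * s = α • s + β • (1 : A))
    (hst : ∀ s ∈ S, ∀ t ∈ S, s ≠ t → s * t + t * s ∈ span F {1, s, t}) :
    (Subalgebra.toSubmodule (Algebra.adjoin F (S : Set A))).FG ∧
    Module.finrank F (Algebra.adjoin F (S : Set A)) ≤ 2 ^ S.card := by
  classical
  induction S using Finset.induction_on with
  | empty =>
    rw [Finset.coe_empty, Algebra.adjoin_empty]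
    refine ⟨?_, ?_⟩
    · rw [Algebra.toSubmodule_bot, Submodule.one_eq_span]
      exact Submodule.fg_span_singleton 1
    · rcases subsingleton_or_nontrivial A with h | h
      · have : Module.finrank F (⊥ : Subalgebra F A) = 0 := Module.finrank_zero_of_subsingleton
        rw [this]; simp
      · rw [Subalgebra.finrank_bot]; simp
  | insert s S hsS ih =>
    obtain ⟨h1, h2⟩ := ih (fun t ht => hq t (Finset.mem_insert_of_mem ht))
      (fun t ht u hu => hst t (Finset.mem_insert_of_mem ht) u (Finset.mem_insert_of_mem hu))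
    obtain ⟨α, β, hs⟩ := hq s (Finset.mem_insert_self s S)
    obtain ⟨h3, h4⟩ := step (S : Set A) s α β hs (fun t ht => hst s (Finset.mem_insert_self s S) t
      (Finset.mem_insert_of_mem ht) (by rintro rfl; exact hsS ht)) h1
    rw [Finset.coe_insert]
    refine ⟨h3, h4.trans ?_⟩
    rw [Finset.card_insert_of_notMem hsS, pow_succ]
    omega

end Vale.Agent.P199
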